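import Mathlib
import Vale.Agent.H48.RWRE

/-!
# P147: no escape against a nonnegative drift

Nearest-neighbour random walk in a random environment on `ℤ^d`, any `d`, any law of the
environment (no independence needed).  If the local drift `∑_e ω(y,e) e` has nonnegative inner
product with `ℓ` at every site `y` (for almost every environment), then the walk almost surely
does not escape in direction `-ℓ`: `X_n · ℓ` is a quenched submartingale with bounded
increments.  Consequently the annealed probabilities of `A_ℓ` and of `A_ℓ ∪ A_{-ℓ}` coincide.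
-/

namespace Vale.Agent.Results.P147.A_NonnegativeDrift

open MeasureTheory Filter
open Vale.Agent.H48.RWRE

theorem result {d : ℕ} (ℓ : Fin d → ℝ) :
    (∀ (ω : (Fin d → ℤ) → Step d → ℝ) (x : Fin d → ℤ) (P : Measure (ℕ → Step d)),
      IsEnv ω → IsQuenchedLaw ω x P → (∀ y, 0 ≤ drift ω ℓ y) → P (escape x (-ℓ)) = 0) ∧
    (∀ (envLaw : Measure ((Fin d → ℤ) → Step d → ℝ))
      (Q : ((Fin d → ℤ) → Step d → ℝ) → Measure (ℕ → Step d)),
      (∀ ω, IsEnv ω → IsQuenchedLaw ω 0 (Q ω)) →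
      (∀ᵐ ω ∂envLaw, IsEnv ω ∧ ∀ y, 0 ≤ drift ω ℓ y) →
      ∫⁻ ω, Q ω (escape 0 (-ℓ)) ∂envLaw = 0 ∧
      ∫⁻ ω, Q ω (escape 0 ℓ ∪ escape 0 (-ℓ)) ∂envLaw = ∫⁻ ω, Q ω (escape 0 ℓ) ∂envLaw) := by
  refine ⟨fun ω x P hω hP hd => quenched_null ω hω x P hP ℓ hd, ?_⟩
  intro envLaw Q hQ hae
  have h0 : ∀ᵐ ω ∂envLaw, Q ω (escape 0 (-ℓ)) = 0 := by
    filter_upwards [hae] with ω hω
    exact quenched_null ω hω.1 0 (Q ω) (hQ ω hω.1) ℓ hω.2
  constructor
  · rw [lintegral_congr_ae h0]
    simp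
  · refine lintegral_congr_ae ?_
    filter_upwards [h0] with ω hω
    refine le_antisymm ((measure_union_le _ _).trans ?_) (measure_mono Set.subset_union_left)
    rw [hω, add_zero]

end Vale.Agent.Results.P147.A_NonnegativeDrift
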